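import Mathlib

open Finset

namespace Vale.Agent.P126

section Agree

variable {A F : Type*} [Fintype A] [DecidableEq A] [Fintype F] [DecidableEq F]

/-- the words that agree with `x` off `V` -/
def agreeOff (x : A → F) (V : Finset A) : Finset (A → F) :=
  Fintype.piFinset (fun α => if α ∈ V then (univ : Finset F) else {x α})

lemma mem_agreeOff {x y : A → F} {V : Finset A} :
    y ∈ agreeOff x V ↔ ∀ α, α ∉ V → y α = x α := by
  unfold agreeOff
  rw [Fintype.mem_piFinset]
  constructor
  · intro h α hα
    have := h α
    simpa [hα] using this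
  · intro h α
    by_cases hα : α ∈ V
    · simp [hα]
    · simp [hα, h α hα]

lemma card_agreeOff (x : A → F) (V : Finset A) :
    (agreeOff x V).card = Fintype.card F ^ V.card := by
  unfold agreeOff
  rw [Fintype.card_piFinset]
  have : ∀ α : A, (if α ∈ V then (univ : Finset F) else {x α}).card
      = if α ∈ V then Fintype.card F else 1 := by
    intro α
    by_cases hα : α ∈ V <;> simp [hα]
  simp_rw [this]
  rw [Finset.prod_ite]
  simp

/-- the number of words that differ from `x` in at most `h` places -/
lemma card_close_le [Nonempty F] (x : A → F) (h : ℕ) :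
    (univ.filter (fun y : A → F => (univ.filter (fun α => x α ≠ y α)).card ≤ h)).card
      ≤ 2 ^ Fintype.card A * Fintype.card F ^ h := by
  classical
  have hsub : univ.filter (fun y : A → F => (univ.filter (fun α => x α ≠ y α)).card ≤ h)
      ⊆ (univ.filter (fun V : Finset A => V.card ≤ h)).biUnion (fun V => agreeOff x V) := by
    intro y hy
    rw [mem_filter] at hy
    rw [mem_biUnion]
    refine ⟨univ.filter (fun α => x α ≠ y α), by simpa using hy.2, ?_⟩
    rw [mem_agreeOff]
    intro α hα
    simp at hα
    exact hα.symm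
  refine (card_le_card hsub).trans ?_
  refine card_biUnion_le.trans ?_
  have h1 : 1 ≤ Fintype.card F := Fintype.card_pos
  calc ∑ V ∈ univ.filter (fun V : Finset A => V.card ≤ h), (agreeOff x V).card
      ≤ ∑ V ∈ univ.filter (fun V : Finset A => V.card ≤ h), Fintype.card F ^ h := by
        apply sum_le_sum
        intro V hV
        rw [card_agreeOff]
        exact Nat.pow_le_pow_right h1 (mem_filter.1 hV).2
    _ = (univ.filter (fun V : Finset A => V.card ≤ h)).card * Fintype.card F ^ h := by
        simp
    _ ≤ 2 ^ Fintype.card A * Fintype.card F ^ h := by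
        apply Nat.mul_le_mul_right
        refine (card_filter_le _ _).trans ?_
        simp

end Agree

section Hitting

variable {ι B : Type*} [Fintype ι] [DecidableEq ι] [Fintype B] [DecidableEq B]

/-- A set of words that does not depend on the coordinates in `T` has at least a
`|B|^(-|T|)` fraction of words equal to `b₀` on `T`. -/
lemma card_le_mul_zero (b₀ : B) (Z : Finset (ι → B)) (T : Finset ι)
    (hZ : ∀ α ∈ Z, ∀ β : ι → B, (∀ i, i ∉ T → β i = α i) → β ∈ Z) :
    Z.card ≤ Fintype.card B ^ T.card * (Z.filter (fun α => ∀ i ∈ T, α i = b₀)).card := by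
  classical
  apply Finset.card_le_mul_card_image_of_maps_to
    (f := fun α : ι → B => fun i => if i ∈ T then b₀ else α i)
  · intro α hα
    rw [mem_filter]
    refine ⟨hZ α hα _ ?_, ?_⟩
    · intro i hi
      simp [hi]
    · intro i hi
      simp [hi]
  · intro β _
    rw [← card_agreeOff β T]
    apply card_le_card
    intro α hα
    rw [mem_filter] at hα
    rw [mem_agreeOff]
    intro i hi
    have := congrFun hα.2 i
    simpa [hi] using this

lemma hitting_aux [Nonempty B] (b₀ : B) (τ : ℕ) (Z : Finset (ι → B)) (t : ℕ) :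
    (∃ C : Finset ι, C.card ≤ τ * t ∧
        ∀ T : Finset ι, Disjoint T C → T.card ≤ τ → ∃ α ∈ Z, ∀ i ∈ T, α i = b₀) ∨
    (∃ C : Finset ι, C.card ≤ τ * t ∧ ∃ Z' : Finset (ι → B), Z ⊆ Z' ∧
        (∀ α ∈ Z', ∀ β : ι → B, (∀ i ∈ C, β i = α i) → β ∈ Z') ∧
        Fintype.card B ^ τ * Z'.card + t * Z.card
          ≤ Fintype.card B ^ τ * Fintype.card (ι → B)) := by
  classical
  induction t with
  | zero =>
    right
    refine ⟨∅, by simp, univ, subset_univ _, fun _ _ _ _ => mem_univ _, by simp⟩
  | succ t ih =>
    rcases ih with ⟨C, hC, hgood⟩ | ⟨C, hC, Z', hZZ', hdep, hcard⟩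
    · left
      exact ⟨C, hC.trans (Nat.mul_le_mul_left _ (Nat.le_succ t)), hgood⟩
    · by_cases hgood : ∀ T : Finset ι, Disjoint T C → T.card ≤ τ → ∃ α ∈ Z, ∀ i ∈ T, α i = b₀
      · left
        exact ⟨C, hC.trans (Nat.mul_le_mul_left _ (Nat.le_succ t)), hgood⟩
      · right
        push Not at hgood
        obtain ⟨T, hTC, hTτ, hT⟩ := hgood
        refine ⟨C ∪ T, ?_, Z'.filter (fun α => ¬ ∀ i ∈ T, α i = b₀), ?_, ?_, ?_⟩
        · calc (C ∪ T).card ≤ C.card + T.card := card_union_le _ _
            _ ≤ τ * t + τ := Nat.add_le_add hC hTτ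
            _ = τ * (t + 1) := by ring
        · intro α hα
          rw [mem_filter]
          refine ⟨hZZ' hα, ?_⟩
          obtain ⟨i, hi, hne⟩ := hT α hα
          intro hall
          exact hne (hall i hi)
        · intro α hα β hβ
          rw [mem_filter] at hα ⊢
          refine ⟨hdep α hα.1 β (fun i hi => hβ i (mem_union_left _ hi)), ?_⟩
          intro hall
          apply hα.2
          intro i hi
          rw [← hβ i (mem_union_right _ hi)]
          exact hall i hi
        · have h1 : Z'.card ≤ Fintype.card B ^ T.card *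
              (Z'.filter (fun α => ∀ i ∈ T, α i = b₀)).card := by
            apply card_le_mul_zero
            intro α hα β hβ
            apply hdep α hα β
            intro i hi
            apply hβ
            intro hiT
            exact (Finset.disjoint_left.1 hTC hiT) hi
          have h2 : Fintype.card B ^ T.card ≤ Fintype.card B ^ τ :=
            Nat.pow_le_pow_right Fintype.card_pos hTτ
          have h3 : (Z'.filter (fun α => ∀ i ∈ T, α i = b₀)).card
              + (Z'.filter (fun α => ¬ ∀ i ∈ T, α i = b₀)).card = Z'.card :=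
            card_filter_add_card_filter_not _
          have h4 : Z.card ≤ Z'.card := card_le_card hZZ'
          have h5 : Z.card ≤ Fintype.card B ^ τ *
              (Z'.filter (fun α => ∀ i ∈ T, α i = b₀)).card :=
            h4.trans (h1.trans (Nat.mul_le_mul_right _ h2))
          rw [← h3] at hcard
          nlinarith [hcard, h5]

/-- Hitting lemma: a set `Z` of more than half of all words meets every cylinder
`{α = b₀ on T}` with `|T| ≤ τ`, once `T` avoids a set `C` of bounded size. -/
lemma hitting [Nonempty B] (b₀ : B) (τ : ℕ) (Z : Finset (ι → B))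
    (hZ : Fintype.card (ι → B) < 2 * Z.card) :
    ∃ C : Finset ι, C.card ≤ τ * Fintype.card B ^ τ ∧
        ∀ T : Finset ι, Disjoint T C → T.card ≤ τ → ∃ α ∈ Z, ∀ i ∈ T, α i = b₀ := by
  rcases hitting_aux b₀ τ Z (Fintype.card B ^ τ) with h | ⟨C, -, Z', hZZ', -, hcard⟩
  · exact h
  · exfalso
    have h4 : Z.card ≤ Z'.card := card_le_card hZZ'
    have hpos : 0 < Fintype.card B ^ τ := pow_pos Fintype.card_pos _
    have : Fintype.card B ^ τ * (2 * Z.card) ≤ Fintype.card B ^ τ * Fintype.card (ι → B) := by
      nlinarith [hcard, h4]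
    have := Nat.le_of_mul_le_mul_left this hpos
    omega

end Hitting

end Vale.Agent.P126
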