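import Vale.Agent.P126.Comb1

open Finset

namespace Vale.Agent.P126

open Classical in
/-- real indicator of a proposition -/
noncomputable def ind (P : Prop) : ℝ := if P then 1 else 0

lemma ind_nonneg (P : Prop) : 0 ≤ ind P := by
  unfold ind; split_ifs <;> norm_num

lemma ind_le_one (P : Prop) : ind P ≤ 1 := by
  unfold ind; split_ifs <;> norm_num

lemma ind_of_true {P : Prop} (h : P) : ind P = 1 := by
  unfold ind; simp [h]

lemma ind_of_false {P : Prop} (h : ¬ P) : ind P = 0 := by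
  unfold ind; simp [h]

lemma ind_mono {P Q : Prop} (h : P → Q) : ind P ≤ ind Q := by
  by_cases hP : P
  · rw [ind_of_true hP, ind_of_true (h hP)]
  · rw [ind_of_false hP]; exact ind_nonneg _

lemma ind_le_add {P Q R : Prop} (h : P → Q ∨ R) : ind P ≤ ind Q + ind R := by
  by_cases hP : P
  · rcases h hP with hQ | hR
    · rw [ind_of_true hP, ind_of_true hQ]; linarith [ind_nonneg R]
    · rw [ind_of_true hP, ind_of_true hR]; linarith [ind_nonneg Q]
  · rw [ind_of_false hP]; linarith [ind_nonneg Q, ind_nonneg R]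

/-- Choice of centres by maximizing a potential. -/
lemma exists_centres {J X : Type*} [Fintype J] (m : J → ℝ) (hm : ∀ j, 0 ≤ m j)
    (hm1 : ∑ j, m j ≤ 1) (cov : J → X → Prop) (X₀ : Finset X) (hX₀ : X₀.Nonempty)
    (p : ℕ) (hp : 0 < p) :
    ∃ w : Fin p → X, (∀ c, w c ∈ X₀) ∧
      ∀ x ∈ X₀, ∑ j, m j * ind (cov j x ∧ ¬ ∃ c, cov j (w c)) ≤ 1 / p := by
  classical
  have hp' : (0 : ℝ) < p := by exact_mod_cast hp
  set Φ : Finset X → ℝ := fun P => ∑ j, m j * ind (∃ w ∈ P, cov j w) - P.card / p with hΦ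
  obtain ⟨P, hP, hmax⟩ := exists_max_image X₀.powerset Φ ⟨∅, by simp⟩
  rw [mem_powerset] at hP
  have hcard : P.card ≤ p := by
    have h0 := hmax ∅ (by simp)
    have hΦ0 : Φ ∅ = 0 := by
      simp only [hΦ]
      simp [ind_of_false]
    have h1 : ∑ j, m j * ind (∃ w ∈ P, cov j w) ≤ 1 := by
      refine le_trans (sum_le_sum (fun j _ => ?_)) hm1
      exact mul_le_of_le_one_right (hm j) (ind_le_one _)
    have h2 : (P.card : ℝ) / p ≤ 1 := by
      rw [hΦ0] at h0
      simp only [hΦ] at h0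
      linarith
    rw [div_le_one hp'] at h2
    exact_mod_cast h2
  obtain ⟨x₀, hx₀⟩ := hX₀
  let w : Fin p → X := fun c =>
    if h : (c : ℕ) < P.card then (P.equivFin.symm ⟨c, h⟩ : X) else x₀
  have hwX : ∀ c, w c ∈ X₀ := by
    intro c
    simp only [w]
    split_ifs with h
    · exact hP (P.equivFin.symm ⟨c, h⟩).2
    · exact hx₀
  have hPw : ∀ y ∈ P, ∃ c, w c = y := by
    intro y hy
    refine ⟨⟨P.equivFin ⟨y, hy⟩, lt_of_lt_of_le (P.equivFin ⟨y, hy⟩).2 hcard⟩, ?_⟩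
    simp only [w]
    rw [dif_pos (P.equivFin ⟨y, hy⟩).2]
    simp
  refine ⟨w, hwX, ?_⟩
  intro x hx
  have hle : ∑ j, m j * ind (cov j x ∧ ¬ ∃ c, cov j (w c))
      ≤ ∑ j, m j * ind (cov j x ∧ ¬ ∃ y ∈ P, cov j y) := by
    refine sum_le_sum (fun j _ => mul_le_mul_of_nonneg_left (ind_mono ?_) (hm j))
    rintro ⟨h1, h2⟩
    refine ⟨h1, ?_⟩
    rintro ⟨y, hy, hc⟩
    obtain ⟨c, rfl⟩ := hPw y hy
    exact h2 ⟨c, hc⟩
  refine hle.trans ?_
  by_cases hxP : x ∈ P
  · have : ∀ j, m j * ind (cov j x ∧ ¬ ∃ y ∈ P, cov j y) = 0 := by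
      intro j
      rw [ind_of_false, mul_zero]
      rintro ⟨h1, h2⟩
      exact h2 ⟨x, hxP, h1⟩
    simp only [this, sum_const_zero]
    positivity
  · have h1 := hmax (insert x P) (by
      rw [mem_powerset]
      exact insert_subset hx hP)
    simp only [hΦ] at h1
    rw [card_insert_of_notMem hxP] at h1
    have h2 : ∑ j, m j * ind (∃ w ∈ insert x P, cov j w)
        = ∑ j, m j * ind (∃ w ∈ P, cov j w)
          + ∑ j, m j * ind (cov j x ∧ ¬ ∃ y ∈ P, cov j y) := by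
      rw [← sum_add_distrib]
      refine sum_congr rfl (fun j _ => ?_)
      rw [← mul_add]
      congr 1
      by_cases hA : ∃ w ∈ P, cov j w
      · obtain ⟨y, hy, hc⟩ := hA
        rw [ind_of_true ⟨y, mem_insert_of_mem hy, hc⟩, ind_of_true ⟨y, hy, hc⟩,
          ind_of_false (fun h => h.2 ⟨y, hy, hc⟩)]
        simp
      · by_cases hB : cov j x
        · rw [ind_of_true ⟨x, mem_insert_self _ _, hB⟩, ind_of_false hA, ind_of_true ⟨hB, hA⟩]
          simp
        · have hC : ¬ ∃ w ∈ insert x P, cov j w := by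
            rintro ⟨y, hy, hc⟩
            rcases mem_insert.1 hy with rfl | hy
            · exact hB hc
            · exact hA ⟨y, hy, hc⟩
          have hD : ¬ (cov j x ∧ ¬ ∃ y ∈ P, cov j y) := fun h => hB h.1
          rw [ind_of_false hA, ind_of_false hC, ind_of_false hD]
          simp
    rw [h2] at h1
    push_cast at h1
    have : ((P.card : ℝ) + 1) / p = P.card / p + 1 / p := by ring
    linarith

/-- the net of integer combinations -/
noncomputable def netPt {𝒯 X : Type*} [Fintype 𝒯] (g : 𝒯 → X → ℝ) (m : ℕ) (k : 𝒯 → ℤ) :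
    X → ℝ := fun x => ∑ t, ((k t : ℝ) / m) * g t x

lemma exists_netPt {𝒯 X Ω : Type*} [Fintype 𝒯] [DecidableEq 𝒯] [Fintype Ω]
    (g : 𝒯 → X → ℝ) (hg : ∀ t x, |g t x| ≤ 1) (m : ℕ) (hm : 0 < m)
    (ty : Ω → 𝒯) (μ : Ω → ℝ) (hμ : ∑ c, |μ c| ≤ 1) :
    ∃ k ∈ Fintype.piFinset (fun _ : 𝒯 => Finset.Icc (-(m : ℤ)) m),
      ∀ x, |∑ c, μ c * g (ty c) x - netPt g m k x| ≤ Fintype.card 𝒯 / m := by
  classical
  have hm' : (0 : ℝ) < m := by exact_mod_cast hm
  set ν : 𝒯 → ℝ := fun t => ∑ c ∈ univ.filter (fun c => ty c = t), μ c with hν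
  have hν1 : ∀ t, |ν t| ≤ 1 := by
    intro t
    refine (abs_sum_le_sum_abs _ _).trans (le_trans ?_ hμ)
    exact sum_le_sum_of_subset_of_nonneg (filter_subset _ _) (fun _ _ _ => abs_nonneg _)
  refine ⟨fun t => ⌊ν t * m⌋, ?_, ?_⟩
  · rw [Fintype.mem_piFinset]
    intro t
    rw [mem_Icc]
    have h1 := abs_le.1 (hν1 t)
    constructor
    · rw [Int.le_floor]
      push_cast
      nlinarith [h1.1]
    · have : (⌊ν t * m⌋ : ℝ) ≤ m := (Int.floor_le _).trans (by nlinarith [h1.2])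
      exact_mod_cast this
  · intro x
    have h1 : ∑ c, μ c * g (ty c) x = ∑ t, ν t * g t x := by
      rw [← sum_fiberwise (s := univ) (g := ty) (f := fun c => μ c * g (ty c) x)]
      refine sum_congr rfl (fun t _ => ?_)
      simp only [hν]
      rw [sum_mul]
      refine sum_congr rfl (fun c hc => ?_)
      rw [(mem_filter.1 hc).2]
    rw [h1]
    unfold netPt
    rw [← sum_sub_distrib]
    refine (abs_sum_le_sum_abs _ _).trans ?_
    have h2 : ∀ t, |ν t * g t x - ((⌊ν t * m⌋ : ℤ) : ℝ) / m * g t x| ≤ 1 / m := by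
      intro t
      rw [← sub_mul, abs_mul]
      have h3 : |ν t - ((⌊ν t * m⌋ : ℤ) : ℝ) / m| ≤ 1 / m := by
        have e : ν t - ((⌊ν t * m⌋ : ℤ) : ℝ) / m = (ν t * m - ((⌊ν t * m⌋ : ℤ) : ℝ)) / m := by
          field_simp
        rw [e, abs_div, abs_of_pos hm']
        apply div_le_div_of_nonneg_right _ hm'.le
        rw [abs_le]
        constructor
        · linarith [Int.floor_le (ν t * m)]
        · linarith [Int.lt_floor_add_one (ν t * m)]
      calc |ν t - ((⌊ν t * m⌋ : ℤ) : ℝ) / m| * |g t x| ≤ 1 / m * 1 :=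
            mul_le_mul h3 (hg t x) (abs_nonneg _) (by positivity)
        _ = 1 / m := mul_one _
    refine (sum_le_sum (fun t _ => h2 t)).trans ?_
    simp [div_eq_mul_inv]

lemma telescope (f : ℕ → ℝ) (h0 : ∀ n, 0 ≤ f n) (h1 : ∀ n, f n ≤ 1) (p : ℕ) :
    ∑ l : Fin p, f (l + 1) ≤ ∑ l : Fin p, f l + 1 := by
  rw [Fin.sum_univ_eq_sum_range (fun l => f (l + 1)) p, Fin.sum_univ_eq_sum_range f p]
  have e1 := sum_range_succ f p
  have e2 := sum_range_succ' f p
  linarith [h0 0, h1 p]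

end Vale.Agent.P126
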