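import Vale.Agent.P126.Comb2

open Finset

namespace Vale.Agent.P126

section Near

variable {ι A F : Type*} [DecidableEq ι]

/-- `x` and `s` agree on the intersection of at most `j` of the sets `S i`, `i ∉ C`. -/
def Near (S : ι → Finset A) (C : Finset ι) (j : ℕ) (x s : A → F) : Prop :=
  ∃ T : Finset ι, Disjoint T C ∧ T.card ≤ j ∧ ∀ α, (∀ i ∈ T, α ∈ S i) → x α = s α

variable {S : ι → Finset A} {C : Finset ι}

omit [DecidableEq ι] in
lemma Near.refl (j : ℕ) (x : A → F) : Near S C j x x :=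
  ⟨∅, by simp, by simp, fun _ _ => rfl⟩

omit [DecidableEq ι] in
lemma Near.symm {j : ℕ} {x y : A → F} (h : Near S C j x y) : Near S C j y x := by
  obtain ⟨T, h1, h2, h3⟩ := h
  exact ⟨T, h1, h2, fun α hα => (h3 α hα).symm⟩

omit [DecidableEq ι] in
lemma Near.mono {j j' : ℕ} {x y : A → F} (h : Near S C j x y) (hj : j ≤ j') :
    Near S C j' x y := by
  obtain ⟨T, h1, h2, h3⟩ := h
  exact ⟨T, h1, h2.trans hj, h3⟩

lemma Near.trans {j j' : ℕ} {x y z : A → F} (h : Near S C j x y) (h' : Near S C j' y z) :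
    Near S C (j + j') x z := by
  obtain ⟨T, h1, h2, h3⟩ := h
  obtain ⟨T', h1', h2', h3'⟩ := h'
  refine ⟨T ∪ T', disjoint_union_left.2 ⟨h1, h1'⟩,
    (card_union_le _ _).trans (Nat.add_le_add h2 h2'), fun α hα => ?_⟩
  rw [h3 α (fun i hi => hα i (mem_union_left _ hi)),
    h3' α (fun i hi => hα i (mem_union_right _ hi))]

omit [DecidableEq ι] in
lemma near_one {i : ι} (hi : i ∉ C) {x y : A → F} (h : ∀ α ∈ S i, x α = y α) :
    Near S C 1 x y :=
  ⟨{i}, by simpa using hi, by simp, fun α hα => h α (hα i (mem_singleton_self _))⟩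

/-- the matrix entry -/
noncomputable def psi (S : ι → Finset A) (p : ℕ) (C : Finset ι) (s x : A → F) : ℝ :=
  (∑ l : Fin p, ind (Near S C (5 ^ (l : ℕ)) x s)) / p

/-- the approximating function attached to centres `w` and a type `(C, Z)` -/
noncomputable def gfun (S : ι → Finset A) (p : ℕ) (w : Fin p → A → F)
    (t : Finset ι × (Fin p → Finset (Fin p))) (x : A → F) : ℝ :=
  (∑ l : Fin p, ind (∃ c ∈ t.2 l, Near S t.1 (2 * 5 ^ (l : ℕ) + 1) x (w c))) / p

open Classical in
/-- the type of a column -/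
noncomputable def tyOf (S : ι → Finset A) (p : ℕ) (w : Fin p → A → F) (C : Finset ι)
    (s : A → F) : Finset ι × (Fin p → Finset (Fin p)) :=
  (C, fun l => univ.filter (fun c => Near S C (5 ^ (l : ℕ) + 1) (w c) s))

lemma avg_ind_nonneg (p : ℕ) (P : Fin p → Prop) : 0 ≤ (∑ l : Fin p, ind (P l)) / p :=
  div_nonneg (sum_nonneg (fun _ _ => ind_nonneg _)) (Nat.cast_nonneg _)

lemma avg_ind_le_one (p : ℕ) (P : Fin p → Prop) : (∑ l : Fin p, ind (P l)) / p ≤ 1 := by
  apply div_le_one_of_le₀ _ (Nat.cast_nonneg _)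
  refine (sum_le_sum (fun l _ => ind_le_one (P l))).trans ?_
  simp

omit [DecidableEq ι] in
lemma abs_psi_le (p : ℕ) (C : Finset ι) (s x : A → F) : |psi S p C s x| ≤ 1 := by
  unfold psi
  rw [abs_of_nonneg (avg_ind_nonneg _ _)]
  exact avg_ind_le_one _ _

omit [DecidableEq ι] in
lemma abs_gfun_le (p : ℕ) (w : Fin p → A → F) (t : Finset ι × (Fin p → Finset (Fin p)))
    (x : A → F) : |gfun S p w t x| ≤ 1 := by
  unfold gfun
  rw [abs_of_nonneg (avg_ind_nonneg _ _)]
  exact avg_ind_le_one _ _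

lemma gfun_le_psi (p : ℕ) (hp : 0 < p) (w : Fin p → A → F) (C : Finset ι) (s x : A → F) :
    gfun S p w (tyOf S p w C s) x ≤ psi S p C s x + 1 / p := by
  unfold gfun psi
  have hp' : (0 : ℝ) < p := by exact_mod_cast hp
  rw [← add_div]
  apply div_le_div_of_nonneg_right _ hp'.le
  refine le_trans ?_ (telescope (fun l => ind (Near S C (5 ^ l) x s))
    (fun _ => ind_nonneg _) (fun _ => ind_le_one _) p)
  refine sum_le_sum (fun l _ => ind_mono ?_)
  rintro ⟨c, hc, h⟩
  simp only [tyOf, mem_filter, mem_univ, true_and] at hc h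
  refine (h.trans hc).mono ?_
  have : 1 ≤ 5 ^ (l : ℕ) := Nat.one_le_pow _ _ (by norm_num)
  rw [pow_succ]
  omega

lemma psi_le_gfun (p : ℕ) (w : Fin p → A → F) (C : Finset ι) (s x x' : A → F)
    (hx : Near S C 1 x' x) :
    psi S p C s x ≤ gfun S p w (tyOf S p w C s) x
      + (∑ l : Fin p, ind (Near S C (5 ^ (l : ℕ) + 1) x' s ∧
          ¬ ∃ c, Near S C (5 ^ (l : ℕ) + 1) (w c) s)) / p := by
  unfold gfun psi
  rw [← add_div, ← sum_add_distrib]
  apply div_le_div_of_nonneg_right _ (Nat.cast_nonneg _)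
  refine sum_le_sum (fun l _ => ind_le_add ?_)
  intro h
  by_cases hc : ∃ c, Near S C (5 ^ (l : ℕ) + 1) (w c) s
  · left
    obtain ⟨c, hc⟩ := hc
    refine ⟨c, by simpa [tyOf] using hc, ?_⟩
    simp only [tyOf]
    refine (h.trans hc.symm).mono ?_
    omega
  · right
    refine ⟨(hx.trans h).mono ?_, hc⟩
    omega

lemma abs_psi_sub_gfun (p : ℕ) (hp : 0 < p) (w : Fin p → A → F) (C : Finset ι) (s x x' : A → F)
    (i : ι) (hx : ∀ α ∈ S i, x' α = x α) :
    |psi S p C s x - gfun S p w (tyOf S p w C s) x| ≤ 1 / p + ind (i ∈ C)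
      + (∑ l : Fin p, ind (Near S C (5 ^ (l : ℕ) + 1) x' s ∧
          ¬ ∃ c, Near S C (5 ^ (l : ℕ) + 1) (w c) s)) / p := by
  have hp' : (0 : ℝ) < p := by exact_mod_cast hp
  have h0 := avg_ind_nonneg p (fun l => Near S C (5 ^ (l : ℕ) + 1) x' s ∧
          ¬ ∃ c, Near S C (5 ^ (l : ℕ) + 1) (w c) s)
  have h1 : (0 : ℝ) ≤ 1 / p := by positivity
  have h2 := gfun_le_psi (S := S) p hp w C s x
  by_cases hi : i ∈ C
  · rw [ind_of_true hi]
    have a1 : 0 ≤ psi S p C s x := avg_ind_nonneg _ _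
    have a2 : psi S p C s x ≤ 1 := avg_ind_le_one _ _
    have a3 : 0 ≤ gfun S p w (tyOf S p w C s) x := avg_ind_nonneg _ _
    have a4 : gfun S p w (tyOf S p w C s) x ≤ 1 := avg_ind_le_one _ _
    rw [abs_le]
    constructor <;> linarith
  · rw [ind_of_false hi]
    have h3 := psi_le_gfun (S := S) p w C s x x' (near_one hi hx)
    rw [abs_le]
    constructor <;> linarith

end Near

section Upper

variable {ι A F : Type*} [Fintype ι] [DecidableEq ι] [Fintype A] [DecidableEq A]
  [Fintype F] [DecidableEq F]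

/-- The small cover of the absolutely convex hull of the columns. -/
lemma exists_small_cover (S : ι → Finset A) (k : ℕ) (hS : ∀ i, (S i).card ≤ k) (f₀ : F)
    (p c₀ : ℕ) (hp : 0 < p) (hι : c₀ * p ≤ Fintype.card ι) (hι0 : 0 < Fintype.card ι) :
    ∃ 𝒢 : Finset ((A → F) → ℝ),
      𝒢.card ≤ Fintype.card ι * (Fintype.card F ^ k) ^ p *
        (2 * (Fintype.card (Finset ι × (Fin p → Finset (Fin p))) * p) + 1) ^
          Fintype.card (Finset ι × (Fin p → Finset (Fin p))) ∧
      ∀ μ : {C : Finset ι // C.card ≤ c₀} × (A → F) → ℝ, ∑ c, |μ c| ≤ 1 →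
        ∃ G ∈ 𝒢, ∀ x, |∑ c, μ c * psi S p c.1.1 c.2 x - G x| ≤ 4 / p := by
  classical
  have hp' : (0 : ℝ) < p := by exact_mod_cast hp
  set 𝒯 := Finset ι × (Fin p → Finset (Fin p)) with h𝒯
  set m : ℕ := Fintype.card 𝒯 * p with hm
  have h𝒯pos : 0 < Fintype.card 𝒯 := Fintype.card_pos
  have hmpos : 0 < m := Nat.mul_pos h𝒯pos hp
  let X₀ : ι → Finset (A → F) := fun i => agreeOff (fun _ => f₀) (S i)
  let W : Finset (Fin p → A → F) :=
    univ.biUnion (fun i => Fintype.piFinset (fun _ : Fin p => X₀ i))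
  let Kset : Finset (𝒯 → ℤ) := Fintype.piFinset (fun _ : 𝒯 => Finset.Icc (-(m : ℤ)) m)
  refine ⟨(W ×ˢ Kset).image (fun z => netPt (gfun S p z.1) m z.2), ?_, ?_⟩
  · refine card_image_le.trans ?_
    rw [card_product]
    apply Nat.mul_le_mul
    · refine card_biUnion_le.trans ?_
      have h1 : 1 ≤ Fintype.card F := Fintype.card_pos_iff.2 ⟨f₀⟩
      have : ∀ i, (Fintype.piFinset (fun _ : Fin p => X₀ i)).card ≤ (Fintype.card F ^ k) ^ p := by
        intro i
        rw [Fintype.card_piFinset]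
        simp only [prod_const, card_univ, Fintype.card_fin, X₀, card_agreeOff]
        exact Nat.pow_le_pow_left (Nat.pow_le_pow_right h1 (hS i)) _
      refine (sum_le_sum (fun i _ => this i)).trans ?_
      simp
    · simp only [Kset]
      rw [Fintype.card_piFinset]
      simp only [prod_const, card_univ, Int.card_Icc]
      apply Nat.pow_le_pow_left
      omega
  · intro μ hμ
    -- choose the index `i`
    have hi : ∃ i : ι, ∑ c, |μ c| * ind (i ∈ c.1.1) ≤ 1 / p := by
      have hne : (univ : Finset ι).Nonempty := by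
        rw [univ_nonempty_iff]; exact Fintype.card_pos_iff.1 hι0
      have : ∑ i : ι, ∑ c, |μ c| * ind (i ∈ c.1.1) ≤ ∑ _i : ι, (1 / p : ℝ) := by
        rw [sum_comm]
        have e1 : ∀ c : {C : Finset ι // C.card ≤ c₀} × (A → F),
            ∑ i : ι, |μ c| * ind (i ∈ c.1.1) ≤ |μ c| * c₀ := by
          intro c
          rw [← mul_sum]
          apply mul_le_mul_of_nonneg_left _ (abs_nonneg _)
          have : ∑ i : ι, ind (i ∈ c.1.1) = (c.1.1.card : ℝ) := by
            have e : ∀ i : ι, ind (i ∈ c.1.1) = if i ∈ c.1.1 then (1 : ℝ) else 0 := by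
              intro i
              by_cases h : i ∈ c.1.1
              · rw [ind_of_true h, if_pos h]
              · rw [ind_of_false h, if_neg h]
            simp only [e]
            simp
          rw [this]
          exact_mod_cast c.1.2
        refine (sum_le_sum (fun c _ => e1 c)).trans ?_
        rw [← sum_mul]
        simp only [sum_const, card_univ, nsmul_eq_mul]
        have e2 : (c₀ : ℝ) * p ≤ Fintype.card ι := by exact_mod_cast hι
        have e3 : (c₀ : ℝ) ≤ Fintype.card ι * (1 / p) := by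
          rw [mul_one_div, le_div_iff₀ hp']; exact e2
        have e4 : (∑ c, |μ c|) * c₀ ≤ 1 * c₀ :=
          mul_le_mul_of_nonneg_right hμ (Nat.cast_nonneg _)
        linarith
      obtain ⟨i, -, hi⟩ := exists_le_of_sum_le hne this
      exact ⟨i, hi⟩
    obtain ⟨i, hi⟩ := hi
    -- choose the centres
    obtain ⟨w, hwX, hw⟩ := exists_centres
      (J := Fin p × ({C : Finset ι // C.card ≤ c₀} × (A → F)))
      (fun j => |μ j.2| / p) (fun j => by positivity)
      (by
        rw [Fintype.sum_prod_type]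
        simp only [← sum_div, sum_const, card_univ, Fintype.card_fin, nsmul_eq_mul]
        rw [mul_div_cancel_left₀ _ hp'.ne']
        exact hμ)
      (fun j y => Near S j.2.1.1 (5 ^ (j.1 : ℕ) + 1) y j.2.2) (X₀ i)
      ⟨fun _ => f₀, mem_agreeOff.2 (fun _ _ => rfl)⟩ p hp
    obtain ⟨kk, hkk, hnet⟩ := exists_netPt (gfun S p w) (abs_gfun_le p w) m hmpos
      (fun c : {C : Finset ι // C.card ≤ c₀} × (A → F) => tyOf S p w c.1.1 c.2) μ hμ
    refine ⟨netPt (gfun S p w) m kk, ?_, ?_⟩
    · rw [mem_image]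
      refine ⟨(w, kk), ?_, rfl⟩
      rw [mem_product]
      refine ⟨?_, hkk⟩
      simp only [W, mem_biUnion, mem_univ, true_and]
      exact ⟨i, Fintype.mem_piFinset.2 hwX⟩
    · intro x
      let x' : A → F := fun α => if α ∈ S i then x α else f₀
      have hx'X : x' ∈ X₀ i := mem_agreeOff.2 (fun α hα => by simp [x', hα])
      have hx' : ∀ α ∈ S i, x' α = x α := fun α hα => by simp [x', hα]
      have h1 := hw x' hx'X
      have h2 := hnet x
      have h3 : (Fintype.card 𝒯 : ℝ) / m = 1 / p := by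
        rw [hm]
        have : (0 : ℝ) < Fintype.card 𝒯 := by exact_mod_cast h𝒯pos
        push_cast
        field_simp
      rw [h3] at h2
      have h4 : |∑ c, μ c * psi S p c.1.1 c.2 x
          - ∑ c, μ c * gfun S p w (tyOf S p w c.1.1 c.2) x| ≤ 3 / p := by
        rw [← sum_sub_distrib]
        refine (abs_sum_le_sum_abs _ _).trans ?_
        have e1 : ∀ c : {C : Finset ι // C.card ≤ c₀} × (A → F),
            |μ c * psi S p c.1.1 c.2 x - μ c * gfun S p w (tyOf S p w c.1.1 c.2) x|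
            ≤ |μ c| * (1 / p) + |μ c| * ind (i ∈ c.1.1)
              + |μ c| * ((∑ l : Fin p, ind (Near S c.1.1 (5 ^ (l : ℕ) + 1) x' c.2 ∧
                ¬ ∃ c', Near S c.1.1 (5 ^ (l : ℕ) + 1) (w c') c.2)) / p) := by
          intro c
          rw [← mul_sub, abs_mul, ← mul_add, ← mul_add]
          exact mul_le_mul_of_nonneg_left (abs_psi_sub_gfun p hp w c.1.1 c.2 x x' i hx')
            (abs_nonneg _)
        refine (sum_le_sum (fun c _ => e1 c)).trans ?_
        rw [sum_add_distrib, sum_add_distrib, ← sum_mul]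
        have e2 : (∑ c, |μ c|) * (1 / (p : ℝ)) ≤ 1 * (1 / p) :=
          mul_le_mul_of_nonneg_right hμ (by positivity)
        have e3 : ∑ c : {C : Finset ι // C.card ≤ c₀} × (A → F),
            |μ c| * ((∑ l : Fin p, ind (Near S c.1.1 (5 ^ (l : ℕ) + 1) x' c.2 ∧
                ¬ ∃ c', Near S c.1.1 (5 ^ (l : ℕ) + 1) (w c') c.2)) / p) ≤ 1 / p := by
          refine le_trans (le_of_eq ?_) h1
          symm
          rw [Fintype.sum_prod_type_right]
          refine sum_congr rfl (fun c _ => ?_)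
          simp only
          rw [← mul_sum]
          ring
        have e4 : (3 : ℝ) / p = 1 / p + 1 / p + 1 / p := by ring
        linarith
      have e5 : (4 : ℝ) / p = 3 / p + 1 / p := by ring
      rw [e5]
      calc |∑ c, μ c * psi S p c.1.1 c.2 x - netPt (gfun S p w) m kk x|
          = |(∑ c, μ c * psi S p c.1.1 c.2 x
              - ∑ c, μ c * gfun S p w (tyOf S p w c.1.1 c.2) x)
            + (∑ c, μ c * gfun S p w (tyOf S p w c.1.1 c.2) x - netPt (gfun S p w) m kk x)| := by
            congr 1; ring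
        _ ≤ _ := (abs_add_le _ _).trans (add_le_add h4 h2)

end Upper

end Vale.Agent.P126
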