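import Vale.Agent.P126.Comb3

open Finset

namespace Vale.Agent.P126

section Sep

variable {ι B F : Type*} [Fintype ι] [DecidableEq ι] [Fintype B] [DecidableEq B] [DecidableEq F]

/-- the coordinate hyperplanes -/
def hyp (b₀ : B) : ι → Finset (ι → B) := fun i => univ.filter (fun α => α i = b₀)

lemma card_hyp (b₀ : B) (i : ι) :
    (hyp b₀ i).card = Fintype.card B ^ (Fintype.card ι - 1) := by
  have : hyp b₀ i = agreeOff (fun _ => b₀) (univ.erase i) := by
    ext α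
    rw [mem_agreeOff]
    simp [hyp]
  rw [this, card_agreeOff, card_erase_of_mem (mem_univ _), card_univ]

lemma exists_sep (b₀ : B) (p : ℕ) (hp : 0 < p) (x x' : (ι → B) → F)
    (h : Fintype.card (ι → B) < 2 * (univ.filter (fun α => x α ≠ x' α)).card) :
    ∃ C : Finset ι, C.card ≤ 5 ^ p * Fintype.card B ^ (5 ^ p) ∧
      psi (hyp b₀) p C x x - psi (hyp b₀) p C x x' = 1 := by
  haveI : Nonempty B := ⟨b₀⟩
  obtain ⟨C, hC, hT⟩ := hitting b₀ (5 ^ p) _ h
  refine ⟨C, hC, ?_⟩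
  have hp' : (0 : ℝ) < p := by exact_mod_cast hp
  have h1 : psi (hyp b₀) p C x x = 1 := by
    unfold psi
    have : ∀ l : Fin p, ind (Near (hyp b₀) C (5 ^ (l : ℕ)) x x) = 1 :=
      fun l => ind_of_true (Near.refl _ _)
    simp only [this]
    simp [hp'.ne']
  have h2 : psi (hyp b₀) p C x x' = 0 := by
    unfold psi
    have : ∀ l : Fin p, ind (Near (hyp b₀) C (5 ^ (l : ℕ)) x' x) = 0 := by
      intro l
      apply ind_of_false
      rintro ⟨T, h1, h2, h3⟩
      obtain ⟨α, hα, hα'⟩ := hT T h1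
        (h2.trans (Nat.pow_le_pow_right (by norm_num) l.2.le))
      rw [mem_filter] at hα
      apply hα.2
      refine (h3 α (fun i hi => ?_)).symm
      simp [hyp, hα' i hi]
    simp [this]
  rw [h1, h2, sub_zero]

end Sep

open Classical in
/-- The combinatorial core, with abstract index types. -/
theorem core_types (p : ℕ) (hp : 0 < p) (b : ℝ) (hb : 0 ≤ b) :
    ∃ (X Ω : Type) (_ : Fintype X) (_ : Fintype Ω) (_ : Nonempty X) (_ : Nonempty Ω)
      (ψ : Ω → X → ℝ) (N₁ R : ℕ),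
      (∃ 𝒢 : Finset (X → ℝ), 𝒢.card ≤ N₁ ∧
        ∀ μ : Ω → ℝ, ∑ c, |μ c| ≤ 1 → ∃ G ∈ 𝒢, ∀ x, |∑ c, μ c * ψ c x - G x| ≤ 4 / p) ∧
      (∀ x, (univ.filter (fun x' => ∀ c, ψ c x - ψ c x' < 1)).card ≤ R) ∧
      (∀ N : ℕ, Fintype.card X ≤ N * R → b * Real.log N₁ < Real.log N) := by
  set D₁ : ℕ := ⌈b⌉₊ * p + 1 with hD₁
  set D : ℕ := 2 * D₁ with hD
  have hDpos : 0 < D := by omega
  set c₀ : ℕ := 5 ^ p * D ^ (5 ^ p) with hc₀
  have hc₀pos : 0 < c₀ := by positivity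
  set M : ℕ := c₀ * p with hM
  have hMpos : 0 < M := Nat.mul_pos hc₀pos hp
  set k : ℕ := D ^ (M - 1) with hk
  have hkpos : 0 < k := by positivity
  have hDM : D ^ M = 2 * (D₁ * k) := by
    have : M = (M - 1) + 1 := by omega
    rw [this, pow_succ, ← hk, hD]
    ring
  set C₀ : ℕ := (2 * (Fintype.card (Finset (Fin M) × (Fin p → Finset (Fin p))) * p) + 1) ^
          Fintype.card (Finset (Fin M) × (Fin p → Finset (Fin p))) with hC₀
  have hC₀pos : 0 < C₀ := by positivity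
  set E : ℝ := (D ^ M : ℕ) * Real.log 2 + b * Real.log (M * C₀ : ℕ) with hE
  set q : ℕ := ⌈Real.exp E⌉₊ + 1 with hq
  have hqpos : 0 < q := by omega
  have hqE : E < Real.log q := by
    rw [Real.lt_log_iff_exp_lt (by exact_mod_cast hqpos)]
    have := Nat.le_ceil (Real.exp E)
    rw [hq]
    push_cast
    linarith
  have hq1 : 0 ≤ Real.log q := Real.log_nonneg (by exact_mod_cast hqpos)
  let b₀ : Fin D := ⟨0, hDpos⟩
  let f₀ : Fin q := ⟨0, hqpos⟩
  haveI : Nonempty (Fin q) := ⟨f₀⟩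
  refine ⟨(Fin M → Fin D) → Fin q,
    {C : Finset (Fin M) // C.card ≤ c₀} × ((Fin M → Fin D) → Fin q),
    inferInstance, inferInstance, ⟨fun _ => f₀⟩, ⟨(⟨∅, by simp⟩, fun _ => f₀)⟩,
    fun c x => psi (hyp b₀) p c.1.1 c.2 x, M * (q ^ k) ^ p * C₀,
    2 ^ (D ^ M) * q ^ (D₁ * k), ?_, ?_, ?_⟩
  · obtain ⟨𝒢, h1, h2⟩ := exists_small_cover (ι := Fin M) (A := Fin M → Fin D) (F := Fin q)
      (hyp b₀) k (fun i => by rw [card_hyp]; simp [hk]) f₀ p c₀ hp (by simp [hM])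
      (by simpa using hMpos)
    refine ⟨𝒢, ?_, h2⟩
    simpa [hC₀] using h1
  · intro x
    have h1 := card_close_le x (D₁ * k)
    simp only [Fintype.card_fun, Fintype.card_fin] at h1
    refine le_trans (card_le_card ?_) h1
    intro x' hx'
    rw [mem_filter] at hx' ⊢
    refine ⟨mem_univ _, ?_⟩
    by_contra hcon
    obtain ⟨C, hC, hsep⟩ := exists_sep b₀ p hp x x' (by
      simp only [Fintype.card_fun, Fintype.card_fin]
      rw [hDM]
      omega)
    have := hx'.2 (⟨C, by simpa using hC⟩, x)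
    simp only at this
    linarith
  · intro N hN
    simp only [Fintype.card_fun, Fintype.card_fin] at hN
    have h1 : q ^ (D₁ * k) ≤ N * 2 ^ (D ^ M) := by
      have hpos : 0 < q ^ (D₁ * k) := by positivity
      apply Nat.le_of_mul_le_mul_right _ hpos
      calc q ^ (D₁ * k) * q ^ (D₁ * k) = q ^ (D ^ M) := by
            rw [← pow_add, hDM]; congr 1; ring
        _ ≤ N * (2 ^ (D ^ M) * q ^ (D₁ * k)) := hN
        _ = N * 2 ^ (D ^ M) * q ^ (D₁ * k) := by ring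
    have hNpos : 0 < N := by
      rcases Nat.eq_zero_or_pos N with h | h
      · subst h
        have hpos : 0 < q ^ (D₁ * k) := by positivity
        omega
      · exact h
    have h2 : ((D₁ * k : ℕ) : ℝ) * Real.log q ≤ Real.log N + (D ^ M : ℕ) * Real.log 2 := by
      have : ((q : ℝ)) ^ (D₁ * k) ≤ N * 2 ^ (D ^ M) := by exact_mod_cast h1
      have h3 := Real.log_le_log (by positivity) this
      rw [Real.log_pow, Real.log_mul (by positivity) (by positivity), Real.log_pow] at h3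
      exact h3
    have h3 : Real.log ((M * (q ^ k) ^ p * C₀ : ℕ) : ℝ)
        = Real.log (M * C₀ : ℕ) + (k * p : ℕ) * Real.log q := by
      have e : ((M * (q ^ k) ^ p * C₀ : ℕ) : ℝ) = ((M * C₀ : ℕ) : ℝ) * (q : ℝ) ^ (k * p) := by
        push_cast
        rw [← pow_mul]
        ring
      rw [e, Real.log_mul (by positivity) (by positivity), Real.log_pow]
    rw [h3]
    have h4 : b * ((k * p : ℕ) : ℝ) + 1 ≤ ((D₁ * k : ℕ) : ℝ) := by
      have hb1 : b ≤ ⌈b⌉₊ := Nat.le_ceil b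
      have hk1 : (1 : ℝ) ≤ k := by exact_mod_cast hkpos
      rw [hD₁]
      push_cast
      have hp0 : (0 : ℝ) ≤ p := Nat.cast_nonneg _
      have : b * (k * p) ≤ ⌈b⌉₊ * (k * p) :=
        mul_le_mul_of_nonneg_right hb1 (by positivity)
      nlinarith
    have h5 : (b * ((k * p : ℕ) : ℝ) + 1) * Real.log q ≤ ((D₁ * k : ℕ) : ℝ) * Real.log q :=
      mul_le_mul_of_nonneg_right h4 hq1
    rw [hE] at hqE
    nlinarith

open Classical in
/-- The combinatorial core, indexed by `Fin`. -/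
theorem core (p : ℕ) (hp : 0 < p) (b : ℝ) (hb : 0 ≤ b) :
    ∃ (n m : ℕ) (ψ : Fin m → Fin n → ℝ) (N₁ R : ℕ), 1 ≤ n ∧ 1 ≤ m ∧
      (∃ 𝒢 : Finset (Fin n → ℝ), 𝒢.card ≤ N₁ ∧
        ∀ μ : Fin m → ℝ, ∑ c, |μ c| ≤ 1 → ∃ G ∈ 𝒢, ∀ x, |∑ c, μ c * ψ c x - G x| ≤ 4 / p) ∧
      (∀ x, (univ.filter (fun x' => ∀ c, ψ c x - ψ c x' < 1)).card ≤ R) ∧
      (∀ N : ℕ, n ≤ N * R → b * Real.log N₁ < Real.log N) := by
  obtain ⟨X, Ω, _, _, _, _, ψ, N₁, R, ⟨𝒢, h𝒢, hcov⟩, hR, hN⟩ := core_types p hp b hb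
  let eX : Fin (Fintype.card X) ≃ X := (Fintype.equivFin X).symm
  let eΩ : Fin (Fintype.card Ω) ≃ Ω := (Fintype.equivFin Ω).symm
  refine ⟨Fintype.card X, Fintype.card Ω, fun c x => ψ (eΩ c) (eX x), N₁, R,
    Fintype.card_pos, Fintype.card_pos, ⟨𝒢.image (fun G => G ∘ eX), card_image_le.trans h𝒢, ?_⟩,
    ?_, hN⟩
  · intro μ hμ
    obtain ⟨G, hG, h⟩ := hcov (fun c => μ (eΩ.symm c)) (by
      rw [← eΩ.sum_comp]
      simpa using hμ)
    refine ⟨G ∘ eX, mem_image_of_mem _ hG, fun x => ?_⟩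
    have := h (eX x)
    rw [← eΩ.sum_comp] at this
    simpa using this
  · intro x
    refine le_trans ?_ (hR (eX x))
    apply card_le_card_of_injOn eX
    · intro x' hx'
      simp only [coe_filter, mem_univ, true_and, Set.mem_setOf_eq] at hx' ⊢
      intro c
      simpa using hx' (eΩ.symm c)
    · exact eX.injective.injOn

end Vale.Agent.P126
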