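import Vale.Agent.P126.Defs
import Vale.Agent.P126.Core

open Finset
open scoped Pointwise Topology

namespace Vale.Agent.P126

variable {n m : ℕ}

lemma inner_eq_sum (x y : EuclideanSpace ℝ (Fin n)) : inner ℝ x y = ∑ i, x i * y i := by
  rw [PiLp.inner_apply]
  refine sum_congr rfl (fun i _ => ?_)
  simp [mul_comm]

lemma abs_coord_le_norm (y : EuclideanSpace ℝ (Fin n)) (i : Fin n) : |y i| ≤ ‖y‖ := by
  simpa using PiLp.norm_apply_le y i

lemma norm_le_sum_abs (y : EuclideanSpace ℝ (Fin n)) : ‖y‖ ≤ ∑ i, |y i| := by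
  rw [EuclideanSpace.norm_eq]
  apply Real.sqrt_le_iff.2
  refine ⟨sum_nonneg (fun _ _ => abs_nonneg _), ?_⟩
  simpa using Finset.sum_sq_le_sq_sum_of_nonneg (s := univ) (f := fun i => |y i|)
    (fun _ _ => abs_nonneg _)

/-- boxes `{y | ∀ i, |y i| ≤ η}` -/
def box (n : ℕ) (η : ℝ) : Set (EuclideanSpace ℝ (Fin n)) := {y | ∀ i, |y i| ≤ η}

lemma box_compact (η : ℝ) : IsCompact (box n η) := by
  apply Metric.isCompact_of_isClosed_isBounded
  · have : box n η = ⋂ i, {y : EuclideanSpace ℝ (Fin n) | |y i| ≤ η} := by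
      ext y; simp [box]
    rw [this]
    refine isClosed_iInter (fun i => isClosed_le ?_ continuous_const)
    fun_prop
  · rw [isBounded_iff_forall_norm_le]
    refine ⟨n * η, fun y hy => (norm_le_sum_abs y).trans ?_⟩
    refine (sum_le_sum (fun i _ => hy i)).trans ?_
    simp

lemma box_mem_nhds {η : ℝ} (hη : 0 < η) : box n η ∈ 𝓝 (0 : EuclideanSpace ℝ (Fin n)) := by
  apply Filter.mem_of_superset (Metric.ball_mem_nhds 0 hη)
  intro y hy i
  rw [mem_ball_zero_iff] at hy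
  exact (abs_coord_le_norm y i).trans hy.le

/-- The absolutely convex hull of the vectors `Ψ c`, thickened by a box. -/
def body (Ψ : Fin m → Fin n → ℝ) (η : ℝ) : Set (EuclideanSpace ℝ (Fin n)) :=
  {z | ∃ μ : Fin m → ℝ, ∑ c, |μ c| ≤ 1 ∧ ∀ i, |z i - ∑ c, μ c * Ψ c i| ≤ η}

lemma box_subset_body (Ψ : Fin m → Fin n → ℝ) (η : ℝ) : box n η ⊆ body Ψ η := by
  intro y hy
  exact ⟨0, by simp, fun i => by simpa using hy i⟩

lemma body_compact (Ψ : Fin m → Fin n → ℝ) (η : ℝ) : IsCompact (body Ψ η) := by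
  have hB : IsCompact {μ : Fin m → ℝ | ∑ c, |μ c| ≤ 1} := by
    apply Metric.isCompact_of_isClosed_isBounded
    · exact isClosed_le (by fun_prop) continuous_const
    · rw [isBounded_iff_forall_norm_le]
      refine ⟨1, fun μ hμ => ?_⟩
      rw [pi_norm_le_iff_of_nonneg zero_le_one]
      intro c
      exact le_trans (single_le_sum (f := fun c => |μ c|) (fun _ _ => abs_nonneg _)
        (mem_univ c)) hμ
  have hf : Continuous (fun z : (Fin m → ℝ) × EuclideanSpace ℝ (Fin n) =>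
      (WithLp.toLp 2 (fun i => ∑ c, z.1 c * Ψ c i) : EuclideanSpace ℝ (Fin n)) + z.2) := by
    fun_prop
  have := (hB.prod (box_compact (n := n) η)).image hf
  convert this using 1
  ext z
  constructor
  · rintro ⟨μ, hμ, hz⟩
    refine ⟨(μ, z - WithLp.toLp 2 (fun i => ∑ c, μ c * Ψ c i)), ⟨hμ, fun i => ?_⟩, by simp⟩
    simpa using hz i
  · rintro ⟨⟨μ, e⟩, ⟨hμ, he⟩, rfl⟩
    refine ⟨μ, hμ, fun i => ?_⟩
    simpa using he i

lemma body_convex (Ψ : Fin m → Fin n → ℝ) (η : ℝ) : Convex ℝ (body Ψ η) := by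
  rintro x ⟨μ, hμ, hx⟩ y ⟨ν, hν, hy⟩ s t hs ht hst
  refine ⟨fun c => s * μ c + t * ν c, ?_, fun i => ?_⟩
  · have : ∀ c, |s * μ c + t * ν c| ≤ s * |μ c| + t * |ν c| := by
      intro c
      refine (abs_add_le _ _).trans ?_
      rw [abs_mul, abs_mul, abs_of_nonneg hs, abs_of_nonneg ht]
    refine (sum_le_sum (fun c _ => this c)).trans ?_
    rw [sum_add_distrib, ← mul_sum, ← mul_sum]
    nlinarith
  · have e : (s • x + t • y) i - ∑ c, (s * μ c + t * ν c) * Ψ c i
        = s * (x i - ∑ c, μ c * Ψ c i) + t * (y i - ∑ c, ν c * Ψ c i) := by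
      have : ∑ c, (s * μ c + t * ν c) * Ψ c i
          = s * ∑ c, μ c * Ψ c i + t * ∑ c, ν c * Ψ c i := by
        rw [mul_sum, mul_sum, ← sum_add_distrib]
        exact sum_congr rfl (fun c _ => by ring)
      rw [this]
      simp
      ring
    rw [e]
    refine (abs_add_le _ _).trans ?_
    rw [abs_mul, abs_mul, abs_of_nonneg hs, abs_of_nonneg ht]
    have h1 := mul_le_mul_of_nonneg_left (hx i) hs
    have h2 := mul_le_mul_of_nonneg_left (hy i) ht
    have : s * η + t * η = η := by rw [← add_mul, hst, one_mul]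
    linarith

lemma neg_mem_body {Ψ : Fin m → Fin n → ℝ} {η : ℝ} {z : EuclideanSpace ℝ (Fin n)}
    (hz : z ∈ body Ψ η) : -z ∈ body Ψ η := by
  obtain ⟨μ, hμ, h⟩ := hz
  refine ⟨fun c => -μ c, by simpa using hμ, fun i => ?_⟩
  have e : (-z) i - ∑ c, -μ c * Ψ c i = -(z i - ∑ c, μ c * Ψ c i) := by
    simp
    ring
  rw [e, abs_neg]
  exact h i

lemma body_isSymmBody (Ψ : Fin m → Fin n → ℝ) {η : ℝ} (hη : 0 < η) :
    IsSymmBody (body Ψ η) := by
  refine ⟨body_compact Ψ η, body_convex Ψ η, ⟨0, ?_⟩, ?_⟩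
  · rw [mem_interior_iff_mem_nhds]
    exact Filter.mem_of_superset (box_mem_nhds hη) (box_subset_body Ψ η)
  · ext z
    rw [Set.mem_neg]
    exact ⟨neg_mem_body, fun h => by simpa using neg_mem_body h⟩

lemma cube_isSymmBody : IsSymmBody (cube n) := by
  have : cube n = body (fun (_ : Fin 0) (_ : Fin n) => (0 : ℝ)) 1 := by
    ext z
    simp [cube, body]
  rw [this]
  exact body_isSymmBody _ one_pos

lemma col_mem_body (Ψ : Fin m → Fin n → ℝ) {η : ℝ} (hη : 0 ≤ η) (c : Fin m) :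
    (WithLp.toLp 2 (Ψ c) : EuclideanSpace ℝ (Fin n)) ∈ body Ψ η := by
  refine ⟨Pi.single c 1, ?_, fun i => ?_⟩
  · rw [Finset.sum_eq_single c] <;> simp +contextual
  · rw [Finset.sum_eq_single c] <;> simp +contextual [hη]

lemma abs_le_of_mem_polar {Ψ : Fin m → Fin n → ℝ} {η : ℝ} (hη : 0 ≤ η)
    {y : EuclideanSpace ℝ (Fin n)} (hy : y ∈ polarBody (body Ψ η)) (c : Fin m) :
    |∑ i, Ψ c i * y i| ≤ 1 := by
  have h1 := hy _ (col_mem_body Ψ hη c)
  have h2 := hy _ (neg_mem_body (col_mem_body Ψ hη c))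
  rw [inner_neg_left] at h2
  rw [inner_eq_sum] at h1 h2
  simp only at h1 h2
  rw [abs_le]
  constructor <;> linarith

lemma mem_polar_body {Ψ : Fin m → Fin n → ℝ} {η α β : ℝ} (hη : 0 ≤ η) (hα : 0 ≤ α)
    {y : EuclideanSpace ℝ (Fin n)} (h1 : ∀ c, |∑ i, Ψ c i * y i| ≤ α) (h2 : ∑ i, |y i| ≤ β)
    (h3 : α + η * β ≤ 1) : y ∈ polarBody (body Ψ η) := by
  rintro z ⟨μ, hμ, hz⟩
  rw [inner_eq_sum]
  have e : ∑ i, z i * y i = ∑ c, μ c * ∑ i, Ψ c i * y i
      + ∑ i, (z i - ∑ c, μ c * Ψ c i) * y i := by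
    simp only [mul_sum]
    rw [sum_comm, ← sum_add_distrib]
    refine sum_congr rfl (fun i _ => ?_)
    rw [sub_mul, sum_mul]
    have : ∑ c, μ c * (Ψ c i * y i) = ∑ c, μ c * Ψ c i * y i :=
      sum_congr rfl (fun c _ => by ring)
    rw [this]
    ring
  rw [e]
  have a1 : ∑ c, μ c * ∑ i, Ψ c i * y i ≤ α := by
    have : ∀ c, μ c * ∑ i, Ψ c i * y i ≤ |μ c| * α := by
      intro c
      refine (le_abs_self _).trans ?_
      rw [abs_mul]
      exact mul_le_mul_of_nonneg_left (h1 c) (abs_nonneg _)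
    refine (sum_le_sum (fun c _ => this c)).trans ?_
    rw [← sum_mul]
    nlinarith
  have a2 : ∑ i, (z i - ∑ c, μ c * Ψ c i) * y i ≤ η * β := by
    have : ∀ i, (z i - ∑ c, μ c * Ψ c i) * y i ≤ η * |y i| := by
      intro i
      refine (le_abs_self _).trans ?_
      rw [abs_mul]
      exact mul_le_mul_of_nonneg_right (hz i) (abs_nonneg _)
    refine (sum_le_sum (fun i _ => this i)).trans ?_
    rw [← mul_sum]
    exact mul_le_mul_of_nonneg_left h2 hη
  linarith

lemma single_mem_polar_cube (i : Fin n) :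
    (EuclideanSpace.single i (1 : ℝ)) ∈ polarBody (cube n) := by
  intro x hx
  rw [EuclideanSpace.inner_single_right]
  simpa using (le_abs_self _).trans (hx i)

lemma sum_abs_le_of_mem_polar_cube {y : EuclideanSpace ℝ (Fin n)} (hy : y ∈ polarBody (cube n)) :
    ∑ i, |y i| ≤ 1 := by
  have h := hy (WithLp.toLp 2 (fun i => if 0 ≤ y i then (1 : ℝ) else -1)) (by
    intro i
    simp only
    split_ifs <;> simp)
  rw [inner_eq_sum] at h
  refine le_trans (le_of_eq (sum_congr rfl (fun i _ => ?_))) h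
  simp only
  split_ifs with hi
  · rw [abs_of_nonneg hi, one_mul]
  · rw [abs_of_neg (not_le.1 hi)]; ring

lemma polar_mem_nhds {K : Set (EuclideanSpace ℝ (Fin n))} (hK : Bornology.IsBounded K) :
    polarBody K ∈ 𝓝 (0 : EuclideanSpace ℝ (Fin n)) := by
  obtain ⟨R, hR, h⟩ := hK.exists_pos_norm_le
  apply Filter.mem_of_superset (Metric.ball_mem_nhds 0 (inv_pos.2 hR))
  intro y hy x hx
  rw [mem_ball_zero_iff] at hy
  calc inner ℝ x y ≤ ‖x‖ * ‖y‖ := real_inner_le_norm _ _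
    _ ≤ R * R⁻¹ := mul_le_mul (h x hx) hy.le (norm_nonneg _) hR.le
    _ = 1 := mul_inv_cancel₀ hR.ne'

lemma exists_cover {A A' B : Set (EuclideanSpace ℝ (Fin n))} (hA : A ⊆ A') (hA' : IsCompact A')
    (hB : B ∈ 𝓝 (0 : EuclideanSpace ℝ (Fin n))) :
    ∃ s : Finset (EuclideanSpace ℝ (Fin n)), A ⊆ ⋃ x ∈ s, x +ᵥ B := by
  obtain ⟨s, -, hs⟩ := hA'.elim_nhds_subcover (fun x => x +ᵥ B) (fun x _ => by
    have := vadd_mem_nhds_vadd x hB
    simpa using this)
  exact ⟨s, hA.trans hs⟩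

lemma covNum_le {A B : Set (EuclideanSpace ℝ (Fin n))} (s : Finset (EuclideanSpace ℝ (Fin n)))
    (hs : A ⊆ ⋃ x ∈ s, x +ᵥ B) : covNum A B ≤ s.card :=
  Nat.sInf_le ⟨s, rfl, hs⟩

open Classical in
lemma le_covNum_mul {A B : Set (EuclideanSpace ℝ (Fin n))}
    (hex : ∃ s : Finset (EuclideanSpace ℝ (Fin n)), A ⊆ ⋃ x ∈ s, x +ᵥ B)
    {X : Type*} [Fintype X] (pt : X → EuclideanSpace ℝ (Fin n)) (hpt : ∀ x, pt x ∈ A)
    (Rel : X → X → Prop) (R : ℕ)
    (hRel : ∀ (z : EuclideanSpace ℝ (Fin n)) (x x' : X), pt x ∈ z +ᵥ B → pt x' ∈ z +ᵥ B → Rel x x')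
    (hR : ∀ x, (univ.filter (fun x' => Rel x x')).card ≤ R) :
    Fintype.card X ≤ covNum A B * R := by
  obtain ⟨s₀, hs₀⟩ := hex
  have hne : {k : ℕ | ∃ s : Finset (EuclideanSpace ℝ (Fin n)),
      s.card = k ∧ A ⊆ ⋃ x ∈ s, x +ᵥ B}.Nonempty := ⟨_, s₀, rfl, hs₀⟩
  obtain ⟨s, hs, hcov⟩ := Nat.sInf_mem hne
  have hsub : (univ : Finset X) ⊆ s.biUnion (fun z => univ.filter (fun x => pt x ∈ z +ᵥ B)) := by
    intro x _
    have := hcov (hpt x)
    simp only [Set.mem_iUnion] at this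
    obtain ⟨z, hz, hx⟩ := this
    rw [mem_biUnion]
    exact ⟨z, hz, by simpa using hx⟩
  have h1 : ∀ z : EuclideanSpace ℝ (Fin n),
      (univ.filter (fun x => pt x ∈ z +ᵥ B)).card ≤ R := by
    intro z
    rcases (univ.filter (fun x => pt x ∈ z +ᵥ B)).eq_empty_or_nonempty with h | ⟨x, hx⟩
    · simp [h]
    · refine le_trans (card_le_card ?_) (hR x)
      intro x' hx'
      rw [mem_filter] at hx hx' ⊢
      exact ⟨mem_univ _, hRel z x x' hx.2 hx'.2⟩
  calc Fintype.card X = (univ : Finset X).card := rfl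
    _ ≤ _ := card_le_card hsub
    _ ≤ ∑ z ∈ s, (univ.filter (fun x => pt x ∈ z +ᵥ B)).card := card_biUnion_le
    _ ≤ ∑ _z ∈ s, R := sum_le_sum (fun z _ => h1 z)
    _ = s.card * R := by simp
    _ = covNum A B * R := by rw [hs]; rfl

lemma log_le_log_nat {a b : ℕ} (h : a ≤ b) : Real.log a ≤ Real.log b := by
  rcases Nat.eq_zero_or_pos a with h0 | h0
  · subst h0
    simpa using Real.log_natCast_nonneg b
  · exact Real.log_le_log (by exact_mod_cast h0) (by exact_mod_cast h)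

/-- The left inequality of the conjecture fails, with `L` the cube. -/
theorem left_fails (a b : ℝ) (ha : 1 ≤ a) (hb : 1 ≤ b) :
    ∃ n : ℕ, 1 ≤ n ∧ ∃ K : Set (EuclideanSpace ℝ (Fin n)), IsSymmBody K ∧
      Real.log (covNum K (cube n))
        < (1 / b) * Real.log (covNum (polarBody (cube n)) (a • polarBody K)) := by
  classical
  set p : ℕ := ⌈24 * a⌉₊ with hp
  have hpa : 24 * a ≤ p := Nat.le_ceil _
  have hp' : (0 : ℝ) < p := by linarith
  have hp0 : 0 < p := by exact_mod_cast hp'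
  obtain ⟨n, m, ψ, N₁, R, hn, -, ⟨𝒢, h𝒢, hcov⟩, hR, hN⟩ := core p hp0 b (by linarith)
  let Ψ : Fin m → Fin n → ℝ := fun c i => 3 * a * ψ c i
  have hK : IsSymmBody (body Ψ (1 / 2)) := body_isSymmBody Ψ (by norm_num)
  refine ⟨n, hn, body Ψ (1 / 2), hK, ?_⟩
  have hup : covNum (body Ψ (1 / 2)) (cube n) ≤ N₁ := by
    refine le_trans (covNum_le (𝒢.image (fun G =>
      (WithLp.toLp 2 (fun i => 3 * a * G i) : EuclideanSpace ℝ (Fin n)))) ?_)
      (card_image_le.trans h𝒢)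
    rintro z ⟨μ, hμ, hz⟩
    obtain ⟨G, hG, hGz⟩ := hcov μ hμ
    simp only [Set.mem_iUnion]
    refine ⟨_, mem_image_of_mem _ hG, ?_⟩
    rw [Set.mem_vadd_set_iff_neg_vadd_mem]
    intro i
    have h1 := hz i
    have h2 := hGz i
    have e1 : ∑ c, μ c * Ψ c i = 3 * a * ∑ c, μ c * ψ c i := by
      rw [mul_sum]
      exact sum_congr rfl (fun c _ => by simp only [Ψ]; ring)
    rw [e1] at h1
    have e2 : (-(WithLp.toLp 2 (fun i => 3 * a * G i) : EuclideanSpace ℝ (Fin n)) +ᵥ z) i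
        = (z i - 3 * a * ∑ c, μ c * ψ c i) + 3 * a * (∑ c, μ c * ψ c i - G i) := by
      simp
      ring
    rw [e2]
    refine (abs_add_le _ _).trans ?_
    rw [abs_mul, abs_of_pos (by linarith : 0 < 3 * a)]
    have h3 : 3 * a * |∑ c, μ c * ψ c i - G i| ≤ 3 * a * (4 / p) :=
      mul_le_mul_of_nonneg_left h2 (by linarith)
    have h4 : 3 * a * (4 / p) ≤ 1 / 2 := by
      rw [← mul_div_assoc, div_le_iff₀ hp']
      linarith
    linarith
  have hlow : n ≤ covNum (polarBody (cube n)) (a • polarBody (body Ψ (1 / 2))) * R := by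
    have := le_covNum_mul (A := polarBody (cube n)) (B := a • polarBody (body Ψ (1 / 2)))
      (exists_cover (A' := box n 1) (fun y hy i => le_trans
          (single_le_sum (f := fun i => |y i|) (fun _ _ => abs_nonneg _) (mem_univ i))
          (sum_abs_le_of_mem_polar_cube hy)) (box_compact 1)
        (by
          have := (smul_mem_nhds_smul_iff₀ (c := a) (by linarith) (x := (0 : EuclideanSpace ℝ (Fin n)))).2
            (polar_mem_nhds hK.1.isBounded)
          simpa using this))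
      (fun i : Fin n => EuclideanSpace.single i (1 : ℝ)) single_mem_polar_cube
      (fun x x' => ∀ c, ψ c x - ψ c x' < 1) R ?_ (fun x => by convert hR x)
    · simpa using this
    · rintro z x x' ⟨_, ⟨u, hu, rfl⟩, hx⟩ ⟨_, ⟨v, hv, rfl⟩, hx'⟩ c
      have h1 := abs_le.1 (abs_le_of_mem_polar (by norm_num) hu c)
      have h2 := abs_le.1 (abs_le_of_mem_polar (by norm_num) hv c)
      have e1 : Ψ c x = ∑ i, Ψ c i * z i + a * ∑ i, Ψ c i * u i := by
        have : ∑ i, Ψ c i * (EuclideanSpace.single x (1 : ℝ)) i = Ψ c x := by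
          rw [Finset.sum_eq_single x] <;> simp +contextual
        rw [← this, ← hx, mul_sum, ← sum_add_distrib]
        refine sum_congr rfl (fun i _ => ?_)
        simp
        ring
      have e2 : Ψ c x' = ∑ i, Ψ c i * z i + a * ∑ i, Ψ c i * v i := by
        have : ∑ i, Ψ c i * (EuclideanSpace.single x' (1 : ℝ)) i = Ψ c x' := by
          rw [Finset.sum_eq_single x'] <;> simp +contextual
        rw [← this, ← hx', mul_sum, ← sum_add_distrib]
        refine sum_congr rfl (fun i _ => ?_)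
        simp
        ring
      have e3 : 3 * a * (ψ c x - ψ c x') ≤ a * 2 := by
        have : 3 * a * (ψ c x - ψ c x') = Ψ c x - Ψ c x' := by simp only [Ψ]; ring
        rw [this, e1, e2]
        nlinarith [h1.2, h2.1]
      nlinarith
  have h1 := hN _ hlow
  have h2 := log_le_log_nat hup
  have hb0 : 0 < b := by linarith
  rw [one_div b, inv_mul_eq_div, lt_div_iff₀ hb0]
  nlinarith

/-- The right inequality of the conjecture fails, with `L` the cube. -/
theorem right_fails (a b : ℝ) (ha : 1 ≤ a) (hb : 1 ≤ b) :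
    ∃ n : ℕ, 1 ≤ n ∧ ∃ K : Set (EuclideanSpace ℝ (Fin n)), IsSymmBody K ∧
      b * Real.log (covNum (polarBody (cube n)) (a⁻¹ • polarBody K))
        < Real.log (covNum K (cube n)) := by
  classical
  set p : ℕ := ⌈48 * a⌉₊ with hp
  have hpa : 48 * a ≤ p := Nat.le_ceil _
  have hp' : (0 : ℝ) < p := by linarith
  have hp0 : 0 < p := by exact_mod_cast hp'
  have ha0 : 0 < a := by linarith
  obtain ⟨n, m, ψ, N₁, R, -, hm, ⟨𝒢, h𝒢, hcov⟩, hR, hN⟩ := core p hp0 b (by linarith)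
  let Ψ : Fin n → Fin m → ℝ := fun x c => 3 * ψ c x
  have hη : 0 < 1 / (4 * a) := by positivity
  have hK : IsSymmBody (body Ψ (1 / (4 * a))) := body_isSymmBody Ψ hη
  refine ⟨m, hm, body Ψ (1 / (4 * a)), hK, ?_⟩
  have hup : covNum (polarBody (cube m)) (a⁻¹ • polarBody (body Ψ (1 / (4 * a)))) ≤ N₁ := by
    have hrep : ∀ G : Fin n → ℝ, ∃ ν : Fin m → ℝ,
        (∃ μ : Fin m → ℝ, ∑ c, |μ c| ≤ 1 ∧ ∀ x, |∑ c, μ c * ψ c x - G x| ≤ 4 / p) →
        (∑ c, |ν c| ≤ 1 ∧ ∀ x, |∑ c, ν c * ψ c x - G x| ≤ 4 / p) := by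
      intro G
      by_cases h : ∃ μ : Fin m → ℝ, ∑ c, |μ c| ≤ 1 ∧ ∀ x, |∑ c, μ c * ψ c x - G x| ≤ 4 / p
      · obtain ⟨μ, hμ⟩ := h
        exact ⟨μ, fun _ => hμ⟩
      · exact ⟨0, fun h' => absurd h' h⟩
    choose rep hrep using hrep
    refine le_trans (covNum_le (𝒢.image (fun G =>
      (WithLp.toLp 2 (rep G) : EuclideanSpace ℝ (Fin m)))) ?_) (card_image_le.trans h𝒢)
    intro y hy
    have hy1 := sum_abs_le_of_mem_polar_cube hy
    obtain ⟨G, hG, hGy⟩ := hcov (fun c => y c) hy1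
    obtain ⟨hν1, hν2⟩ := hrep G ⟨_, hy1, hGy⟩
    simp only [Set.mem_iUnion]
    refine ⟨_, mem_image_of_mem _ hG, ?_⟩
    rw [Set.mem_vadd_set_iff_neg_vadd_mem, Set.mem_inv_smul_set_iff₀ ha0.ne']
    have hco : ∀ c, (a • (-(WithLp.toLp 2 (rep G) : EuclideanSpace ℝ (Fin m)) +ᵥ y)) c
        = a * (y c - rep G c) := by
      intro c
      simp
      ring
    apply mem_polar_body (α := 1 / 2) (β := 2 * a) hη.le (by norm_num)
    · intro x
      simp only [hco]
      have e : ∑ c, Ψ x c * (a * (y c - rep G c))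
          = 3 * a * ((∑ c, y c * ψ c x - G x) - (∑ c, rep G c * ψ c x - G x)) := by
        rw [sub_sub_sub_cancel_right, ← sum_sub_distrib, mul_sum]
        exact sum_congr rfl (fun c _ => by simp only [Ψ]; ring)
      rw [e, abs_mul, abs_of_pos (by linarith : 0 < 3 * a)]
      have h1 : |(∑ c, y c * ψ c x - G x) - (∑ c, rep G c * ψ c x - G x)| ≤ 4 / p + 4 / p :=
        (abs_sub _ _).trans (add_le_add (hGy x) (hν2 x))
      have h3 := mul_le_mul_of_nonneg_left h1 (by linarith : 0 ≤ 3 * a)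
      have h4 : 3 * a * (4 / p + 4 / p) ≤ 1 / 2 := by
        rw [← add_div, ← mul_div_assoc, div_le_iff₀ hp']
        linarith
      linarith
    · simp only [hco]
      have : ∀ c, |a * (y c - rep G c)| ≤ a * (|y c| + |rep G c|) := by
        intro c
        rw [abs_mul, abs_of_pos ha0]
        exact mul_le_mul_of_nonneg_left (abs_sub _ _) ha0.le
      refine (sum_le_sum (fun c _ => this c)).trans ?_
      rw [← mul_sum, sum_add_distrib]
      nlinarith
    · have : 1 / (4 * a) * (2 * a) = 1 / 2 := by field_simp; norm_num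
      linarith
  have hlow : n ≤ covNum (body Ψ (1 / (4 * a))) (cube m) * R := by
    have := le_covNum_mul (A := body Ψ (1 / (4 * a))) (B := cube m)
      (exists_cover subset_rfl hK.1 (box_mem_nhds one_pos))
      (fun x : Fin n => (WithLp.toLp 2 (Ψ x) : EuclideanSpace ℝ (Fin m)))
      (fun x => col_mem_body Ψ hη.le x)
      (fun x x' => ∀ c, ψ c x - ψ c x' < 1) R ?_ (fun x => by convert hR x)
    · simpa using this
    · rintro z x x' ⟨u, hu, hx⟩ ⟨v, hv, hx'⟩ c
      have h1 := abs_le.1 (hu c)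
      have h2 := abs_le.1 (hv c)
      have e1 : z c + u c = 3 * ψ c x := by
        have := congrArg (fun w : EuclideanSpace ℝ (Fin m) => w c) hx
        simpa using this
      have e2 : z c + v c = 3 * ψ c x' := by
        have := congrArg (fun w : EuclideanSpace ℝ (Fin m) => w c) hx'
        simpa using this
      linarith [h1.2, h2.1]
  have h1 := hN _ hlow
  have h2 := log_le_log_nat hup
  nlinarith

end Vale.Agent.P126
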